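import Vale.Agent.P076.R2.H831V.Spec2

/-!
# P076 : row Z1, anisotropic weights
-/

open MeasureTheory Complex FourierTransform Filter Topology Set
open scoped ENNReal NNReal

namespace Vale.Agent.P076.R2.H111A

open Vale.Agent.P076 Vale.Agent.P076.H791 Vale.Agent.P076.R2 Vale.Agent.P076.R2.H45
open Vale.Agent.P076.R2.H831 Vale.Agent.P076.R2.H831V

variable {n : ℕ}

lemma nrm_sq' (ξ : Fin n → ℝ) : nrm ξ ^ 2 = ∑ i, ξ i ^ 2 :=
  Real.sq_sqrt (Finset.sum_nonneg fun i _ => sq_nonneg _)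

lemma nrm_nonneg' (ξ : Fin n → ℝ) : 0 ≤ nrm ξ := Real.sqrt_nonneg _

lemma nrm_cont : Continuous (nrm : (Fin n → ℝ) → ℝ) := by
  unfold nrm
  fun_prop

lemma pyth {e : Fin n → ℝ} (he : nrm e = 1) (ξ : Fin n → ℝ) :
    nrm ξ ^ 2 = (∑ i, ξ i * e i) ^ 2 + nrm (ξ - (∑ i, ξ i * e i) • e) ^ 2 := by
  have h1 : ∑ i, e i ^ 2 = 1 := by rw [← nrm_sq', he, one_pow]
  rw [nrm_sq', nrm_sq']
  set c := ∑ i, ξ i * e i with hc
  have h2 : ∀ i, (ξ - c • e) i ^ 2 = ξ i ^ 2 - 2 * c * (ξ i * e i) + c ^ 2 * e i ^ 2 := by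
    intro i
    simp only [Pi.sub_apply, Pi.smul_apply, smul_eq_mul]
    ring
  rw [Finset.sum_congr rfl fun i _ => h2 i, Finset.sum_add_distrib, Finset.sum_sub_distrib,
    ← Finset.mul_sum, ← Finset.mul_sum, h1, ← hc]
  ring

/-- the weights of the tubes -/
noncomputable def thf (ε : ℝ) (k j : ℕ) : ℝ :=
  min ((2 : ℝ) ^ (-(((k : ℝ) - 1) * (1 / 2 + ε)))) ((2 : ℝ) ^ (-(((j : ℝ) - 1) * (1 + ε))))

lemma thf_nonneg (ε : ℝ) (k j : ℕ) : 0 ≤ thf ε k j :=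
  le_min (Real.rpow_nonneg (by norm_num) _) (Real.rpow_nonneg (by norm_num) _)

lemma thf_max {ε : ℝ} (hε : 0 < ε) (k j : ℕ) :
    thf ε k j * max ((2 : ℝ) ^ j) ((2 : ℝ) ^ ((k : ℝ) / 2)) ≤
      (2 : ℝ) ^ (1 + ε) * ((2 : ℝ) ^ (-(ε / 2))) ^ k := by
  have h2 : (0 : ℝ) < 2 := by norm_num
  have hR : (2 : ℝ) ^ (1 + ε) * ((2 : ℝ) ^ (-(ε / 2))) ^ k = (2 : ℝ) ^ (1 + ε - ε / 2 * k) := by
    rw [← Real.rpow_natCast, ← Real.rpow_mul h2.le, ← Real.rpow_add h2]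
    congr 1
    ring
  rw [hR, ← Real.rpow_natCast 2 j]
  have hk : (0 : ℝ) ≤ k := Nat.cast_nonneg k
  rcases le_total ((2 : ℝ) ^ (j : ℝ)) ((2 : ℝ) ^ ((k : ℝ) / 2)) with h | h
  · rw [max_eq_right h]
    calc thf ε k j * (2 : ℝ) ^ ((k : ℝ) / 2)
        ≤ (2 : ℝ) ^ (-(((k : ℝ) - 1) * (1 / 2 + ε))) * (2 : ℝ) ^ ((k : ℝ) / 2) :=
          mul_le_mul_of_nonneg_right (min_le_left _ _) (Real.rpow_nonneg h2.le _)
      _ = (2 : ℝ) ^ (-(((k : ℝ) - 1) * (1 / 2 + ε)) + (k : ℝ) / 2) :=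
          (Real.rpow_add h2 _ _).symm
      _ ≤ _ := Real.rpow_le_rpow_of_exponent_le (by norm_num) (by nlinarith)
  · rw [max_eq_left h]
    have h3 : (k : ℝ) / 2 ≤ j := (Real.rpow_le_rpow_left_iff (by norm_num)).1 h
    calc thf ε k j * (2 : ℝ) ^ (j : ℝ)
        ≤ (2 : ℝ) ^ (-(((j : ℝ) - 1) * (1 + ε))) * (2 : ℝ) ^ (j : ℝ) :=
          mul_le_mul_of_nonneg_right (min_le_right _ _) (Real.rpow_nonneg h2.le _)
      _ = (2 : ℝ) ^ (-(((j : ℝ) - 1) * (1 + ε)) + (j : ℝ)) :=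
          (Real.rpow_add h2 _ _).symm
      _ ≤ _ := Real.rpow_le_rpow_of_exponent_le (by norm_num) (by nlinarith)

lemma point {ε x y r : ℝ} (hε : 0 < ε) (hx : 0 ≤ x) (hy : 0 ≤ y) (hr : 0 ≤ r)
    (hp : r ^ 2 = x ^ 2 + y ^ 2) (h7 : 7 < r) (h4 : y < r / 4) :
    ∃ k j : ℕ, j < k ∧ 2 ^ k ≤ r ∧ r < 2 ^ (k + 1) ∧ y ≤ 2 ^ j ∧
      (1 + x ^ (1 / 2 + ε) + y ^ (1 + ε))⁻¹ ≤ thf ε k j := by
  obtain ⟨k, hk1, hk2⟩ := exists_nat_pow_near (x := r) (y := 2) (by linarith) (by norm_num)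
  have hk : 2 ≤ k := by
    by_contra hc
    push Not at hc
    have : (2 : ℝ) ^ (k + 1) ≤ 2 ^ 2 := pow_le_pow_right₀ (by norm_num) (by omega)
    linarith
  have hxr : r / 2 ≤ x := by
    by_contra hc
    push Not at hc
    nlinarith
  have hex : ∃ j : ℕ, y ≤ 2 ^ j := by
    obtain ⟨m, hm⟩ := pow_unbounded_of_one_lt y (by norm_num : (1 : ℝ) < 2)
    exact ⟨m, hm.le⟩
  classical
  have hj1 := Nat.find_spec hex
  have hj2 : Nat.find hex ≤ k - 1 := by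
    refine Nat.find_min' hex ?_
    obtain ⟨m, rfl⟩ : ∃ m, k = m + 1 := ⟨k - 1, by omega⟩
    rw [Nat.add_sub_cancel]
    rw [pow_succ, pow_succ] at hk2
    linarith
  have hW1 : (2 : ℝ) ^ (((k : ℝ) - 1) * (1 / 2 + ε)) ≤ x ^ (1 / 2 + ε) := by
    rw [Real.rpow_mul (by norm_num)]
    refine Real.rpow_le_rpow (Real.rpow_nonneg (by norm_num) _) ?_ (by linarith)
    rw [Real.rpow_sub (by norm_num), Real.rpow_one, Real.rpow_natCast]
    linarith
  have hxe : 0 ≤ x ^ (1 / 2 + ε) := Real.rpow_nonneg hx _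
  have hye : 0 ≤ y ^ (1 + ε) := Real.rpow_nonneg hy _
  have hW2 : (2 : ℝ) ^ (((Nat.find hex : ℝ) - 1) * (1 + ε)) ≤ 1 + y ^ (1 + ε) := by
    rcases Nat.eq_zero_or_pos (Nat.find hex) with h0 | h0
    · rw [h0]
      have : (2 : ℝ) ^ ((((0 : ℕ) : ℝ) - 1) * (1 + ε)) ≤ 1 :=
        Real.rpow_le_one_of_one_le_of_nonpos (by norm_num) (by push_cast; nlinarith)
      linarith
    · have h1 : (2 : ℝ) ^ (Nat.find hex - 1) < y := by
        have := Nat.find_min hex (m := Nat.find hex - 1) (by omega)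
        exact not_le.1 this
      have h2 : (2 : ℝ) ^ (((Nat.find hex : ℝ) - 1) * (1 + ε)) ≤ y ^ (1 + ε) := by
        rw [Real.rpow_mul (by norm_num)]
        refine Real.rpow_le_rpow (Real.rpow_nonneg (by norm_num) _) ?_ (by linarith)
        have h3 : ((Nat.find hex : ℝ) - 1) = ((Nat.find hex - 1 : ℕ) : ℝ) := by
          rw [Nat.cast_sub h0, Nat.cast_one]
        rw [h3, Real.rpow_natCast]
        exact h1.le
      linarith
  refine ⟨k, Nat.find hex, by omega, hk1, hk2, hj1, ?_⟩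
  refine le_min ?_ ?_
  · rw [Real.rpow_neg (by norm_num)]
    exact inv_anti₀ (Real.rpow_pos_of_pos (by norm_num) _) (by linarith)
  · rw [Real.rpow_neg (by norm_num)]
    exact inv_anti₀ (Real.rpow_pos_of_pos (by norm_num) _) (by linarith)

/-- the tubes -/
noncomputable def TT (e : Fin n → ℝ) (ε : ℝ) (k : ℕ) : Finset ((Fin n → ℝ) × ℝ × ℝ) :=
  (Finset.range k).image fun j => (e, (2 : ℝ) ^ j, thf ε k j)

lemma TT_sum (e : Fin n → ℝ) (ε : ℝ) (k : ℕ) (f : (Fin n → ℝ) × ℝ × ℝ → ℝ) :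
    ∑ p ∈ TT e ε k, f p = ∑ j ∈ Finset.range k, f (e, (2 : ℝ) ^ j, thf ε k j) := by
  unfold TT
  rw [Finset.sum_image]
  intro a _ b _ hab
  have h1 : (2 : ℝ) ^ a = 2 ^ b := congrArg (fun q : (Fin n → ℝ) × ℝ × ℝ => q.2.1) hab
  exact pow_right_injective₀ (by norm_num) (by norm_num) h1

theorem thin {e : Fin n → ℝ} (he : nrm e = 1) {ε : ℝ} (hε : 0 < ε) :
    ThinWeights 1 (TT e ε) (fun _ p _ => ENNReal.ofReal p.2.2) := by
  refine ⟨fun k p hp => ?_, ?_⟩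
  · unfold TT at hp
    obtain ⟨j, hj, rfl⟩ := Finset.mem_image.1 hp
    refine ⟨he, ?_, thf_nonneg _ _ _, measurable_const, Or.inl fun ξ => le_rfl⟩
    have h1 := Finset.mem_range.1 hj
    obtain ⟨m, rfl⟩ : ∃ m, k = m + 1 := ⟨k - 1, by omega⟩
    change (2 : ℝ) ^ j ≤ 2 ^ (m + 1) / 2
    rw [pow_succ, mul_div_assoc, div_self (by norm_num), mul_one]
    exact pow_le_pow_right₀ (by norm_num) (by omega)
  · have hr0 : (0 : ℝ) < (2 : ℝ) ^ (-(ε / 2)) := Real.rpow_pos_of_pos (by norm_num) _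
    have hr1 : (2 : ℝ) ^ (-(ε / 2)) < 1 :=
      Real.rpow_lt_one_of_one_lt_of_neg (by norm_num) (by linarith)
    have hs0 : ∀ r : ℝ, ‖r‖ < 1 → Summable fun k : ℕ => (k : ℝ) ^ 2 * r ^ k :=
      fun r hr => summable_pow_mul_geometric_of_norm_lt_one 2 hr
    have hs : Summable fun k : ℕ => (2 * (2 : ℝ) ^ (1 + ε)) *
        ((k : ℝ) ^ 2 * ((2 : ℝ) ^ (-(ε / 2))) ^ k) :=
      Summable.mul_left _ (hs0 _ (by rw [Real.norm_of_nonneg hr0.le]; exact hr1))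
    refine Summable.of_nonneg_of_le (fun k => ?_) (fun k => ?_) hs
    · refine mul_nonneg (Real.sqrt_nonneg _) ?_
      rw [TT_sum]
      exact Finset.sum_nonneg fun j _ => mul_nonneg (thf_nonneg _ _ _)
        (le_max_of_le_left (by positivity))
    · rw [TT_sum]
      have h1 : ∑ j ∈ Finset.range k, thf ε k j * max ((2 : ℝ) ^ j) ((2 : ℝ) ^ ((k : ℝ) / 2)) ≤
          k * ((2 : ℝ) ^ (1 + ε) * ((2 : ℝ) ^ (-(ε / 2))) ^ k) := by
        refine (Finset.sum_le_sum fun j _ => thf_max hε k j).trans ?_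
        rw [Finset.sum_const, Finset.card_range, nsmul_eq_mul]
      have h2 : √((k : ℝ) + 1) ≤ (k : ℝ) + 1 := by
        rw [Real.sqrt_le_left (by positivity)]
        nlinarith [(Nat.cast_nonneg k : (0 : ℝ) ≤ k)]
      have hk : (0 : ℝ) ≤ k := Nat.cast_nonneg k
      have h3 : (0 : ℝ) ≤ (2 : ℝ) ^ (1 + ε) * ((2 : ℝ) ^ (-(ε / 2))) ^ k := by positivity
      have h4 : ((k : ℝ) + 1) * k ≤ 2 * (k : ℝ) ^ 2 := by
        rcases Nat.eq_zero_or_pos k with h0 | h0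
        · rw [h0]; norm_num
        · have : (1 : ℝ) ≤ k := by exact_mod_cast h0
          nlinarith
      calc _ ≤ ((k : ℝ) + 1) * (k * ((2 : ℝ) ^ (1 + ε) * ((2 : ℝ) ^ (-(ε / 2))) ^ k)) :=
            mul_le_mul h2 h1 (Finset.sum_nonneg fun j _ => mul_nonneg (thf_nonneg _ _ _)
              (le_max_of_le_left (by positivity))) (by positivity)
        _ = (((k : ℝ) + 1) * k) * ((2 : ℝ) ^ (1 + ε) * ((2 : ℝ) ^ (-(ε / 2))) ^ k) := by ring
        _ ≤ (2 * (k : ℝ) ^ 2) * ((2 : ℝ) ^ (1 + ε) * ((2 : ℝ) ^ (-(ε / 2))) ^ k) :=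
            mul_le_mul_of_nonneg_right h4 h3
        _ = _ := by ring

/-- the radial bound -/
noncomputable def ph (ε r : ℝ) : ℝ := (8 : ℝ) ^ (1 + ε) * (1 + ‖r‖) ^ (-(1 + ε))

lemma ph_eq {ε r : ℝ} (hr : 0 ≤ r) : ph ε r = (((1 + r) / 8) ^ (1 + ε))⁻¹ := by
  unfold ph
  rw [Real.norm_of_nonneg hr, Real.rpow_neg (by linarith), Real.div_rpow (by linarith)
    (by norm_num), inv_div]
  rfl

theorem intLE (hn : 1 ≤ n) {ε : ℝ} (hε : 0 < ε) :
    IntegralLE (n := n) (fun ξ => ENNReal.ofReal (ph ε (nrm ξ)))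
      (fun ρ => ENNReal.ofReal (ph ε ρ) * ENNReal.ofReal (cC n * 1 ^ (n - 1))) 1 := by
  intro ρ hρ ω
  have h1 : ∀ ω' : Metric.sphere (0 : EuclideanSpace ℝ (Fin n)) 1,
      ENNReal.ofReal (ph ε (nrm (ρ • ω'.1).ofLp)) = ENNReal.ofReal (ph ε ρ) := by
    intro ω'
    rw [nrm_sph hρ ω']
  simp only [h1]
  rw [setLIntegral_const, ← mul_assoc, mul_comm (ENNReal.ofReal (ρ ^ (n - 1))), mul_assoc]
  exact mul_le_mul_right (cap_le hn hρ one_pos ω) _

theorem stAni {n : ℕ} (hn : 1 ≤ n) (h : StWt n) : StAni n := by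
  intro e ε he hε
  refine h _ (fun ξ => ENNReal.ofReal (ph ε (nrm ξ)))
    (fun ρ => ENNReal.ofReal (ph ε ρ) * ENNReal.ofReal (cC n * 1 ^ (n - 1))) 1 (TT e ε)
    (fun _ p _ => ENNReal.ofReal p.2.2) ?_ ?_ ?_ ?_ ?_ one_pos (intLE hn hε) (thin he hε) ?_
  · refine ENNReal.measurable_ofReal.comp ?_
    have h1 : Measurable fun ξ : Fin n → ℝ => |∑ i, ξ i * e i| := by fun_prop
    have h2 : Measurable fun ξ : Fin n → ℝ => nrm (ξ - (∑ i, ξ i * e i) • e) :=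
      (nrm_cont.comp (by fun_prop)).measurable
    exact (measurable_const.add (h1.pow_const _)).add (h2.pow_const _)
  · intro ξ
    have h1 : (0 : ℝ) ≤ |∑ i, ξ i * e i| ^ (1 / 2 + ε) := Real.rpow_nonneg (abs_nonneg _) _
    have h2 : (0 : ℝ) ≤ nrm (ξ - (∑ i, ξ i * e i) • e) ^ (1 + ε) :=
      Real.rpow_nonneg (nrm_nonneg' _) _
    rw [← ENNReal.ofReal_one]
    exact ENNReal.ofReal_le_ofReal (by linarith)
  · refine ENNReal.measurable_ofReal.comp ?_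
    unfold ph
    exact (measurable_const.mul ((measurable_const.add
      (nrm_cont.measurable.norm)).pow_const _))
  · refine Measurable.mul_const (ENNReal.measurable_ofReal.comp ?_) _
    unfold ph
    exact (measurable_const.mul ((measurable_const.add measurable_norm).pow_const _))
  · have h1 : Measurable fun ρ : ℝ => ENNReal.ofReal (ph ε ρ) := by
      refine ENNReal.measurable_ofReal.comp ?_
      unfold ph
      exact (measurable_const.mul ((measurable_const.add measurable_norm).pow_const _))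
    refine lt_of_le_of_lt (setLIntegral_le_lintegral _ _) ?_
    rw [lintegral_mul_const _ h1]
    refine ENNReal.mul_lt_top ?_ ENNReal.ofReal_lt_top
    have h2 : ∀ ρ : ℝ, ENNReal.ofReal (ph ε ρ) =
        ENNReal.ofReal ((8 : ℝ) ^ (1 + ε)) * ENNReal.ofReal ((1 + ‖ρ‖) ^ (-(1 + ε))) := by
      intro ρ
      unfold ph
      rw [ENNReal.ofReal_mul (by positivity)]
    simp only [h2]
    rw [lintegral_const_mul' _ _ ENNReal.ofReal_ne_top]
    refine ENNReal.mul_lt_top ENNReal.ofReal_lt_top ?_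
    exact finite_integral_one_add_norm (by simp; linarith)
  · intro ξ
    set x := |∑ i, ξ i * e i| with hx
    set y := nrm (ξ - (∑ i, ξ i * e i) • e) with hy
    have hx0 : 0 ≤ x := abs_nonneg _
    have hy0 : 0 ≤ y := nrm_nonneg' _
    have hr0 : 0 ≤ nrm ξ := nrm_nonneg' _
    have hxe : 0 ≤ x ^ (1 / 2 + ε) := Real.rpow_nonneg hx0 _
    have hye : 0 ≤ y ^ (1 + ε) := Real.rpow_nonneg hy0 _
    have hp : nrm ξ ^ 2 = x ^ 2 + y ^ 2 := by
      rw [hx, sq_abs]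
      exact pyth he ξ
    rw [← ENNReal.ofReal_inv_of_pos (by linarith)]
    by_cases hc : 7 < nrm ξ ∧ y < nrm ξ / 4
    · obtain ⟨k, j, hjk, hk1, hk2, hyj, hW⟩ := point hε hx0 hy0 hr0 hp hc.1 hc.2
      refine le_trans ?_ le_add_self
      refine le_trans ?_ (ENNReal.le_tsum k)
      have hmem : (e, (2 : ℝ) ^ j, thf ε k j) ∈ TT e ε k :=
        Finset.mem_image.2 ⟨j, Finset.mem_range.2 hjk, rfl⟩
      refine le_trans ?_ (Finset.single_le_sum (f := fun p : (Fin n → ℝ) × ℝ × ℝ =>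
        (tube k p).indicator (fun _ => ENNReal.ofReal p.2.2) ξ) (fun _ _ => zero_le) hmem)
      have hin : ξ ∈ tube k (e, (2 : ℝ) ^ j, thf ε k j) := ⟨hk1, hk2, hyj⟩
      change _ ≤ (tube k (e, (2 : ℝ) ^ j, thf ε k j)).indicator _ ξ
      rw [Set.indicator_of_mem hin]
      exact ENNReal.ofReal_le_ofReal hW
    · refine le_trans (ENNReal.ofReal_le_ofReal ?_) le_self_add
      rw [ph_eq hr0]
      refine inv_anti₀ (Real.rpow_pos_of_pos (by linarith) _) ?_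
      by_cases h7 : 7 < nrm ξ
      · have h4 : nrm ξ / 4 ≤ y := not_lt.1 fun h => hc ⟨h7, h⟩
        have h5 : ((1 + nrm ξ) / 8) ^ (1 + ε) ≤ y ^ (1 + ε) :=
          Real.rpow_le_rpow (by linarith) (by linarith) (by linarith)
        linarith
      · have h5 : ((1 + nrm ξ) / 8) ^ (1 + ε) ≤ 1 :=
          Real.rpow_le_one (by linarith) (by linarith) (by linarith)
        linarith

end Vale.Agent.P076.R2.H111A
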